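import Vale.Agent.P131.Main

namespace Vale.Agent.Results.P131.Counterexample

/-- On every separable infinite-dimensional complex Hilbert space there is a nonscalar bounded
operator whose only closed hyperinvariant subspaces are `0` and the whole space. -/
theorem result (H : Type*) [NormedAddCommGroup H] [InnerProductSpace ℂ H] [CompleteSpace H]
    [TopologicalSpace.SeparableSpace H] (hinf : ¬FiniteDimensional ℂ H) :
    ∃ T : H →L[ℂ] H, (∀ c : ℂ, T ≠ c • (1 : H →L[ℂ] H)) ∧
      ∀ M : Submodule ℂ H, IsClosed (M : Set H) →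
        (∀ A : H →L[ℂ] H, A * T = T * A → ∀ x ∈ M, A x ∈ M) → M = ⊥ ∨ M = ⊤ :=
  Vale.Agent.P131.main H hinf

end Vale.Agent.Results.P131.Counterexample
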